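import Vale.Agent.Lib.P038.SatK.Shapes.S6_5_5t
noncomputable section
namespace Vale.Agent.Lib.P038.SatK.I.M1_5
open Vale.Agent.Lib.P038.Sat Vale.Agent.Lib.P038.SatK
def W : Nat := 76
def M : Nat := 75557863725914323419135
def GT : Nat := 4737383010765390401857803308803508054873864002370249910067604746765979459213129974169857898688992456191397908739504694686791022383486139991806018015930909935479987603944688839309705081697926446946020882393449948255119570846933796719234879808028309158590964732062876456251133919519510108894650591633063746286257607468975299203732419718336254967183903271178934060211379259094518216601099596149797342535628874277639084833027301018281607384314356853005676953886573911331625746624250604506858539740363781094278055518894284029383757336169051161928670721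
def h0 : T := (T.l (nat_lit 0))
def H : T := h0
theorem hlast : getB H 0 = 0 := by decide +kernel
end Vale.Agent.Lib.P038.SatK.I.M1_5
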